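import Mathlib
import Vale.Agent.Lib.P002.Defs
import Vale.Agent.Lib.P002.Field

namespace Vale.Agent.Results.P002.FreeAbelian

open Vale.Agent.Lib.P002

/-- One-field potential density of integral points for `π₁ = ℤ^n`, every rank `r` and every choice
of quasi-unipotent boundary classes at a set `I` of the standard generators.  There is a number
field `L ⊆ ℂ` such that every conjugation invariant polynomial function `P` of the matrix entries
which vanishes at all points of `Y` coming from representations with entries in the ring of integers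
of `L` vanishes on all of `Y`. -/
theorem result (n r : ℕ) (I : Finset (Fin n)) (c : Fin n → Matrix (Fin r) (Fin r) ℂ)
    (hc : ∀ i ∈ I, ∀ μ : ℂ, (c i).charpoly.IsRoot μ → ∃ k : ℕ, 0 < k ∧ μ ^ k = 1) :
    ∃ L : IntermediateField ℚ ℂ, FiniteDimensional ℚ L ∧
      ∀ P : MvPolynomial (Fin n × Fin r × Fin r) ℂ,
        (∀ (A : Fin n → Matrix (Fin r) (Fin r) ℂ) (g : GL (Fin r) ℂ), IsRep A →
          evalAt (fun i => (g : Matrix (Fin r) (Fin r) ℂ) * A i *
            ((g⁻¹ : GL (Fin r) ℂ) : Matrix (Fin r) (Fin r) ℂ)) P = evalAt A P) →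
        (∀ A : Fin n → Matrix (Fin r) (Fin r) ℂ, InY I c A →
          (∀ i a b, A i a b ∈ L ∧ IsIntegral ℤ (A i a b)) → evalAt A P = 0) →
        ∀ A : Fin n → Matrix (Fin r) (Fin r) ℂ, InY I c A → evalAt A P = 0 := by
  refine ⟨Lc I c, Lc_finite I c hc, fun P hinv hvan A hA => ?_⟩
  refine density_boundary (Lc I c) (UL_Lc_infinite I c) n r I c ?_ P hinv hvan A hA
  intro i hi μ hμ
  exact ⟨IntermediateField.subset_adjoin ℚ _ (Finset.mem_coe.2 (root_mem_genSet I c hi hμ)),
    integral_of_root_of_unity (hc i hi μ hμ)⟩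

end Vale.Agent.Results.P002.FreeAbelian
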